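import Vale.Agent.P243.Defs
import Vale.Agent.P243.MainA

open Vale.Agent.P243

namespace Vale.Agent.Results.P243.Bang

/-- Bang's half-area question has a negative answer: there are a convex body `K` in three-space
(a regular tetrahedron) and a finite covering of `K` by cylinders whose total base area is strictly
smaller than half of the smallest projection area of `K`; quantitatively `c_3 ≤ 1/2 - 10^(-10)`. -/
theorem result :
    (∃ K : Set E3, IsConvexBody K ∧ ∃ (m : ℕ) (C : Fin m → Cylinder), Covers C K ∧
      totalArea C < Amin K / 2) ∧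
    (¬ ∀ K : Set E3, IsConvexBody K → ∀ (m : ℕ) (C : Fin m → Cylinder), Covers C K →
      Amin K / 2 ≤ totalArea C) ∧
    c3 ≤ ENNReal.ofReal (1 / 2 - 1 / 10 ^ 10) := by
  obtain ⟨m, C, hC, hlt⟩ := bang_lt
  refine ⟨⟨tetra, tetra_convexBody, m, C, hC, hlt⟩, ?_, c3_le⟩
  intro h
  exact absurd hlt (not_lt.2 (h tetra tetra_convexBody m C hC))

end Vale.Agent.Results.P243.Bang
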