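import Vale.Agent.P243.Defs
import Vale.Agent.P243.MainR

open Vale.Agent.P243

namespace Vale.Agent.Results.P243.RelArea

/-- The 1-codimensional cylinder covering conjecture in dimension three is false: there are a convex
body and a finite covering of it by cylinders with directionwise relative area below `1/2`. In fact
the infimum `r_3` is at most `11/24`. -/
theorem result :
    (∃ K : Set E3, IsConvexBody K ∧ ∃ (m : ℕ) (C : Fin m → Cylinder), Covers C K ∧
      relArea C K < 1 / 2) ∧
    (¬ ∀ K : Set E3, IsConvexBody K → ∀ (m : ℕ) (C : Fin m → Cylinder), Covers C K →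
      1 / 2 ≤ relArea C K) ∧
    r3 ≤ 11 / 24 := by
  have h1 : ∃ K : Set E3, IsConvexBody K ∧ ∃ (m : ℕ) (C : Fin m → Cylinder), Covers C K ∧
      relArea C K < 1 / 2 := by
    obtain ⟨m, C, hC, hlt⟩ := main_R 1000 (by norm_num)
    refine ⟨tetra, tetra_convexBody, m, C, hC, lt_of_le_of_lt hlt ?_⟩
    have h2 : (1 / 2 : ENNReal) = ENNReal.ofReal (1 / 2) := by
      rw [ENNReal.ofReal_div_of_pos (by norm_num)]; simp
    rw [h2]
    exact (ENNReal.ofReal_lt_ofReal_iff (by norm_num)).2 (by norm_num)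
  refine ⟨h1, ?_, ?_⟩
  · intro h
    obtain ⟨K, hK, m, C, hC, hlt⟩ := h1
    exact absurd hlt (not_lt.2 (h K hK m C hC))
  · have h3 : (11 / 24 : ENNReal) = ENNReal.ofReal (11 / 24) := by
      rw [ENNReal.ofReal_div_of_pos (by norm_num)]; norm_num
    rw [h3]
    apply ENNReal.le_of_forall_pos_le_add
    intro ε hε _
    obtain ⟨N, hN⟩ := exists_nat_gt (10 / (ε : ℝ))
    have hε' : (0 : ℝ) < ε := by exact_mod_cast hε
    set M : ℕ := max N 10 with hM
    have hM10 : 10 ≤ M := le_max_right _ _
    have hMN : (N : ℝ) ≤ M := by exact_mod_cast le_max_left N 10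
    have hM0 : (0 : ℝ) < M := by
      have : (10 : ℝ) ≤ M := by exact_mod_cast hM10
      linarith
    obtain ⟨m, C, hC, hle⟩ := main_R M hM10
    have h4 : r3 ≤ ENNReal.ofReal (11 / 24 + 10 / (M : ℝ)) := by
      unfold r3
      exact iInf_le_of_le tetra (iInf_le_of_le tetra_convexBody (iInf_le_of_le m
        (iInf_le_of_le C (iInf_le_of_le hC hle))))
    refine h4.trans ?_
    rw [ENNReal.ofReal_add (by norm_num) (by positivity)]
    gcongr
    rw [← ENNReal.ofReal_coe_nnreal]
    apply ENNReal.ofReal_le_ofReal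
    rw [div_le_iff₀ hM0]
    rw [div_lt_iff₀ hε'] at hN
    nlinarith

end Vale.Agent.Results.P243.RelArea
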