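import Vale.Agent.Results.P243.Bang
import Vale.Agent.Results.P243.RelArea

open Vale.Agent.P243

namespace Vale.Agent.Results.P243.BothForms

/-- Both questions have a negative answer: Bang's half-area bound fails, and the
1-codimensional cylinder covering conjecture in three-space fails.  The two constants of the
problem satisfy `r_3 ≤ c_3`, `c_3 ≤ 1/2 - 10^(-10) < 1/2` and `r_3 ≤ 11/24 < 1/2`. -/
theorem result :
    (¬ ∀ K : Set E3, IsConvexBody K → ∀ (m : ℕ) (C : Fin m → Cylinder), Covers C K →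
      Amin K / 2 ≤ totalArea C) ∧
    (¬ ∀ K : Set E3, IsConvexBody K → ∀ (m : ℕ) (C : Fin m → Cylinder), Covers C K →
      1 / 2 ≤ relArea C K) ∧
    (∃ K : Set E3, IsConvexBody K ∧ ∃ (m : ℕ) (C : Fin m → Cylinder), Covers C K ∧
      totalArea C < Amin K / 2) ∧
    (∃ K : Set E3, IsConvexBody K ∧ ∃ (m : ℕ) (C : Fin m → Cylinder), Covers C K ∧
      relArea C K < 1 / 2) ∧
    c3 ≤ ENNReal.ofReal (1 / 2 - 1 / 10 ^ 10) ∧ c3 < 1 / 2 ∧
    r3 ≤ 11 / 24 ∧ r3 < 1 / 2 ∧ r3 ≤ c3 := by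
  have hB := Vale.Agent.Results.P243.Bang.result
  have hR := Vale.Agent.Results.P243.RelArea.result
  have h12 : (1 / 2 : ENNReal) = ENNReal.ofReal (1 / 2) := by
    rw [ENNReal.ofReal_div_of_pos (by norm_num)]; simp
  have h1124 : (11 / 24 : ENNReal) = ENNReal.ofReal (11 / 24) := by
    rw [ENNReal.ofReal_div_of_pos (by norm_num)]; norm_num
  refine ⟨hB.2.1, hR.2.1, hB.1, hR.1, hB.2.2, ?_, hR.2.2, ?_, ?_⟩
  · rw [h12]
    exact lt_of_le_of_lt hB.2.2 ((ENNReal.ofReal_lt_ofReal_iff (by norm_num)).2 (by norm_num))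
  · rw [h12]
    refine lt_of_le_of_lt hR.2.2 ?_
    rw [h1124]
    exact (ENNReal.ofReal_lt_ofReal_iff (by norm_num)).2 (by norm_num)
  · unfold r3 c3
    refine iInf_mono fun K => iInf_mono fun _ => iInf_mono fun m => iInf_mono fun C =>
      iInf_mono fun _ => ?_
    unfold relArea totalArea
    simp only [div_eq_mul_inv]
    rw [Finset.sum_mul]
    refine Finset.sum_le_sum fun i _ => ?_
    refine mul_le_mul_right ?_ _
    rw [ENNReal.inv_le_inv]
    exact iInf₂_le (C i).dir (C i).norm_dir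

end Vale.Agent.Results.P243.BothForms
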