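import Vale.Agent.P243.Defs
import Vale.Agent.P243.MainA8
import Vale.Agent.P243.Main5

open Vale.Agent.P243

namespace Vale.Agent.Results.P243.Combined

/-- Both forms of the half-area question have a negative answer, with explicit bounds for both
constants.
(1) There are a convex body `K` in three-space (a regular tetrahedron) and a finite covering of `K`
by cylinders whose total base area is strictly smaller than half of the smallest projection area.
(2) For every `ε > 0` there are a convex body (the same tetrahedron) and a finite covering of it by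
cylinders with directionwise relative area at most `5/12 + ε`; so it can be below `1/2`.
(3) `c_3 ≤ 1/2 - 8 * 10^(-10)`, in particular `c_3 < 1/2`.
(4) `r_3 ≤ 5/12`. -/
theorem result :
    (∃ K : Set E3, IsConvexBody K ∧ ∃ (m : ℕ) (C : Fin m → Cylinder), Covers C K ∧
      totalArea C < Amin K / 2) ∧
    (∀ ε : ℝ, 0 < ε → ∃ K : Set E3, IsConvexBody K ∧ ∃ (m : ℕ) (C : Fin m → Cylinder),
      Covers C K ∧ relArea C K ≤ ENNReal.ofReal (5 / 12 + ε)) ∧
    c3 ≤ ENNReal.ofReal (1 / 2 - 8 / 10 ^ 10) ∧
    r3 ≤ 5 / 12 := by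
  refine ⟨?_, ?_, c3_le8, r3_le5⟩
  · obtain ⟨m, C, hC, hlt⟩ := bang_lt
    exact ⟨tetra, tetra_convexBody, m, C, hC, hlt⟩
  · intro ε hε
    obtain ⟨N, hN⟩ := exists_nat_gt (10 / ε)
    have hM10 : 10 ≤ max N 10 := le_max_right _ _
    have hMN : (N : ℝ) ≤ ((max N 10 : ℕ) : ℝ) := by exact_mod_cast le_max_left N 10
    have hM0 : (0 : ℝ) < ((max N 10 : ℕ) : ℝ) := by
      have : (10 : ℝ) ≤ ((max N 10 : ℕ) : ℝ) := by exact_mod_cast hM10
      linarith
    obtain ⟨m, C, hC, hle⟩ := main_R5 (max N 10) hM10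
    refine ⟨tetra, tetra_convexBody, m, C, hC, hle.trans (ENNReal.ofReal_le_ofReal ?_)⟩
    have : 10 / ((max N 10 : ℕ) : ℝ) ≤ ε := by
      rw [div_le_iff₀ hM0]
      rw [div_lt_iff₀ hε] at hN
      nlinarith
    linarith

end Vale.Agent.Results.P243.Combined
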